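import Mathlib

/-!
# Maker strategies in a Maker-Breaker game (Maker moves first)

A Maker strategy answers the list of Breaker's replies so far.  `MakerWinsBy W n τ` says that
Maker, following `τ`, owns a winning set of `W` after at most `n` of his own moves, whatever
Breaker replies, as long as Breaker's replies are legal.
-/

namespace Vale.Agent.Lib.P062

variable {α : Type}

/-- A Maker strategy: Maker's next cell as a function of the list of Breaker's replies so far
(oldest first).  Maker moves first, so his first cell is the value at the empty list. -/
abbrev MakerStrategy (α : Type) : Type := List α → α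

/-- Breaker's first `k` replies `r 0, …, r (k-1)`, oldest first. -/
def breakerReplies (r : ℕ → α) (k : ℕ) : List α := (List.range k).map r

/-- Maker's move number `k` (counted from `0`) when Maker follows `τ` and Breaker's successive
replies are `r 0, r 1, …`; it is made after Breaker's replies number `0, …, k - 1`. -/
def makerMove (τ : MakerStrategy α) (r : ℕ → α) (k : ℕ) : α := τ (breakerReplies r k)

/-- Maker's move number `k` is legal: its cell was not claimed earlier by either player. -/
def MakerMoveLegal (τ : MakerStrategy α) (r : ℕ → α) (k : ℕ) : Prop :=
  (∀ j < k, makerMove τ r k ≠ makerMove τ r j) ∧ ∀ j < k, makerMove τ r k ≠ r j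

/-- Breaker's reply number `k` (his answer to Maker's move number `k`) is legal: its cell was
not claimed earlier by either player. -/
def BreakerReplyLegal (τ : MakerStrategy α) (r : ℕ → α) (k : ℕ) : Prop :=
  (∀ j ≤ k, r k ≠ makerMove τ r j) ∧ ∀ j < k, r k ≠ r j

/-- After his move number `k`, Maker owns every cell of some winning set of `W`. -/
def MakerOwnsAfter (W : Set (Finset α)) (τ : MakerStrategy α) (r : ℕ → α) (k : ℕ) : Prop :=
  ∃ C ∈ W, ∀ c ∈ C, ∃ j ≤ k, makerMove τ r j = c

/-- Maker, following `τ`, wins within `n` of his own moves: for every sequence `r` of Breaker
replies there is a move number `k < n` such that Breaker's replies before it are all legal,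
Maker's moves number `0, …, k` are all legal, and either Maker owns a winning set after his move
number `k`, or Breaker's reply to that move is illegal. -/
def MakerWinsBy (W : Set (Finset α)) (n : ℕ) (τ : MakerStrategy α) : Prop :=
  ∀ r : ℕ → α, ∃ k < n, (∀ j < k, BreakerReplyLegal τ r j) ∧ (∀ j ≤ k, MakerMoveLegal τ r j) ∧
    (MakerOwnsAfter W τ r k ∨ ¬ BreakerReplyLegal τ r k)

end Vale.Agent.Lib.P062
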