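import Vale.Agent.Lib.P062.MakerGame
import Vale.Agent.Lib.P062.helper3.StrategyDefs

/-!
# From the bounded-depth predicate `MakerWinsIn` to an explicit Maker strategy
-/

namespace Vale.Agent.Lib.P062

variable {α : Type}

/-- The statement that `c` is a good Maker move in the position `(M, R)` with `k` further moves
available afterwards: the body of `MakerWinsIn W (k + 1) M R`. -/
def GoodMove (W : Set (Finset α)) (k : ℕ) (M R : Set α) (c : α) : Prop :=
  c ∉ M ∧ c ∉ R ∧ ((∃ C ∈ W, (C : Set α) ⊆ insert c M) ∨
    ∀ r, r ∉ insert c M → r ∉ R → MakerWinsIn W k (insert c M) (insert r R))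

open Classical in
/-- A good move if there is one. -/
noncomputable def pickMove [Inhabited α] (W : Set (Finset α)) (k : ℕ) (M R : Set α) : α :=
  if h : ∃ c, GoodMove W k M R c then Classical.choose h else default

theorem pickMove_spec [Inhabited α] (W : Set (Finset α)) (k : ℕ) (M R : Set α)
    (h : MakerWinsIn W (k + 1) M R) : GoodMove W k M R (pickMove W k M R) := by
  have h' : ∃ c, GoodMove W k M R c := h
  unfold pickMove
  rw [dif_pos h']
  exact Classical.choose_spec h'

/-- Maker's first `k` moves when he picks good moves against the replies `r`. -/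
noncomputable def makerHist [Inhabited α] (W : Set (Finset α)) (n : ℕ) (r : ℕ → α) : ℕ → List α
  | 0 => []
  | k + 1 => makerHist W n r k ++
      [pickMove W (n - 1 - k) {c | c ∈ makerHist W n r k} {c | ∃ j < k, r j = c}]

/-- The strategy extracted from `MakerWinsIn W n ∅ ∅`. -/
noncomputable def goodStrategy [Inhabited α] (W : Set (Finset α)) (n : ℕ) : MakerStrategy α :=
  fun bs => pickMove W (n - 1 - bs.length)
    {c | c ∈ makerHist W n (fun i => bs.getD i default) bs.length} {c | c ∈ bs}

theorem makerHist_congr [Inhabited α] (W : Set (Finset α)) (n : ℕ) (r r' : ℕ → α) :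
    ∀ k, (∀ j < k, r j = r' j) → makerHist W n r k = makerHist W n r' k := by
  intro k
  induction k with
  | zero => intro _; rfl
  | succ k ih =>
    intro h
    have h1 : makerHist W n r k = makerHist W n r' k := ih (fun j hj => h j (by omega))
    have h2 : {c | ∃ j < k, r j = c} = {c | ∃ j < k, r' j = c} := by
      ext c
      constructor
      · rintro ⟨j, hj, rfl⟩
        exact ⟨j, hj, (h j (by omega)).symm⟩
      · rintro ⟨j, hj, rfl⟩
        exact ⟨j, hj, h j (by omega)⟩
    simp only [makerHist]
    rw [h1, h2]

theorem length_breakerReplies (r : ℕ → α) (k : ℕ) : (breakerReplies r k).length = k := by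
  simp [breakerReplies]

theorem mem_breakerReplies (r : ℕ → α) (k : ℕ) (c : α) :
    c ∈ breakerReplies r k ↔ ∃ j < k, r j = c := by
  simp [breakerReplies]

theorem getD_breakerReplies [Inhabited α] (r : ℕ → α) (k j : ℕ) (hj : j < k) :
    (breakerReplies r k).getD j default = r j := by
  simp [breakerReplies, List.getD, hj]

theorem makerMove_goodStrategy [Inhabited α] (W : Set (Finset α)) (n : ℕ) (r : ℕ → α) (k : ℕ) :
    makerMove (goodStrategy W n) r k =
      pickMove W (n - 1 - k) {c | c ∈ makerHist W n r k} {c | ∃ j < k, r j = c} := by
  unfold makerMove goodStrategy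
  rw [length_breakerReplies]
  have h1 : makerHist W n (fun i => (breakerReplies r k).getD i default) k = makerHist W n r k :=
    makerHist_congr W n _ _ k (fun j hj => getD_breakerReplies r k j hj)
  have h2 : {c | c ∈ breakerReplies r k} = {c | ∃ j < k, r j = c} := by
    ext c
    exact mem_breakerReplies r k c
  rw [h1, h2]

theorem mem_makerHist [Inhabited α] (W : Set (Finset α)) (n : ℕ) (r : ℕ → α) :
    ∀ (k : ℕ) (c : α), c ∈ makerHist W n r k ↔ ∃ j < k, makerMove (goodStrategy W n) r j = c := by
  intro k
  induction k with
  | zero => intro c; simp [makerHist]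
  | succ k ih =>
    intro c
    simp only [makerHist, List.mem_append, List.mem_singleton]
    rw [ih c, ← makerMove_goodStrategy W n r k]
    constructor
    · rintro (⟨j, hj, rfl⟩ | rfl)
      · exact ⟨j, by omega, rfl⟩
      · exact ⟨k, by omega, rfl⟩
    · rintro ⟨j, hj, rfl⟩
      by_cases hjk : j < k
      · exact Or.inl ⟨j, hjk, rfl⟩
      · have : j = k := by omega
        subst this
        exact Or.inr rfl

/-- The invariant carried along a play: either the game is already decided at some earlier move,
or everything so far is legal and Maker still has a bounded-depth win. -/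
theorem goodStrategy_invariant [Inhabited α] (W : Set (Finset α)) (n : ℕ)
    (h : MakerWinsIn W n ∅ ∅) (r : ℕ → α) : ∀ k ≤ n,
    (∃ k' < k, (∀ j < k', BreakerReplyLegal (goodStrategy W n) r j) ∧
        (∀ j ≤ k', MakerMoveLegal (goodStrategy W n) r j) ∧
        (MakerOwnsAfter W (goodStrategy W n) r k' ∨ ¬ BreakerReplyLegal (goodStrategy W n) r k')) ∨
      ((∀ j < k, BreakerReplyLegal (goodStrategy W n) r j) ∧
        (∀ j < k, MakerMoveLegal (goodStrategy W n) r j) ∧
        MakerWinsIn W (n - k) {c | c ∈ makerHist W n r k} {c | ∃ j < k, r j = c}) := by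
  intro k
  induction k with
  | zero =>
    intro _
    right
    refine ⟨fun j hj => absurd hj (by omega), fun j hj => absurd hj (by omega), ?_⟩
    have h1 : {c : α | c ∈ makerHist W n r 0} = ∅ := by
      ext c; simp [makerHist]
    have h2 : {c : α | ∃ j < 0, r j = c} = ∅ := by
      ext c; simp
    rw [h1, h2]
    exact h
  | succ k ih =>
    intro hk
    rcases ih (by omega) with ⟨k', hk', hA⟩ | ⟨hB, hM, hwin⟩
    · exact Or.inl ⟨k', by omega, hA⟩
    · have hnk : n - k = (n - 1 - k) + 1 := by omega
      rw [hnk] at hwin
      have hgood := pickMove_spec W (n - 1 - k) _ _ hwin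
      rw [← makerMove_goodStrategy W n r k] at hgood
      obtain ⟨g1, g2, g3⟩ := hgood
      -- Maker's move number k is legal
      have hlegal : MakerMoveLegal (goodStrategy W n) r k := by
        refine ⟨?_, ?_⟩
        · intro j hj heq
          apply g1
          exact (mem_makerHist W n r k _).mpr ⟨j, hj, heq.symm⟩
        · intro j hj heq
          apply g2
          exact ⟨j, hj, heq.symm⟩
      have hM' : ∀ j ≤ k, MakerMoveLegal (goodStrategy W n) r j := by
        intro j hj
        by_cases hjk : j < k
        · exact hM j hjk
        · have : j = k := by omega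
          subst this
          exact hlegal
      have hset : insert (makerMove (goodStrategy W n) r k) {c | c ∈ makerHist W n r k} =
          {c | c ∈ makerHist W n r (k + 1)} := by
        ext c
        simp only [Set.mem_insert_iff, Set.mem_ofPred_eq, makerHist, List.mem_append,
          List.mem_singleton]
        rw [← makerMove_goodStrategy W n r k]
        exact or_comm
      rcases g3 with ⟨C, hC, hsub⟩ | hcont
      · -- Maker owns a winning set after move k
        left
        refine ⟨k, by omega, hB, hM', Or.inl ⟨C, hC, ?_⟩⟩
        intro c hc
        have hc' := hsub (Finset.mem_coe.mpr hc)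
        rw [hset] at hc'
        obtain ⟨j, hj, hjc⟩ := (mem_makerHist W n r (k + 1) c).mp hc'
        exact ⟨j, by omega, hjc⟩
      · by_cases hrep : BreakerReplyLegal (goodStrategy W n) r k
        · right
          refine ⟨?_, ?_, ?_⟩
          · intro j hj
            by_cases hjk : j < k
            · exact hB j hjk
            · have : j = k := by omega
              subst this
              exact hrep
          · intro j hj
            exact hM' j (by omega)
          · have hr1 : r k ∉ insert (makerMove (goodStrategy W n) r k) {c | c ∈ makerHist W n r k} := by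
              rw [hset]
              intro hmem
              obtain ⟨j, hj, hjc⟩ := (mem_makerHist W n r (k + 1) (r k)).mp hmem
              exact hrep.1 j (by omega) hjc.symm
            have hr2 : r k ∉ {c | ∃ j < k, r j = c} := by
              rintro ⟨j, hj, hjc⟩
              exact hrep.2 j hj hjc.symm
            have hnext := hcont (r k) hr1 hr2
            have hset2 : insert (r k) {c | ∃ j < k, r j = c} = {c | ∃ j < k + 1, r j = c} := by
              ext c
              simp only [Set.mem_insert_iff, Set.mem_ofPred_eq]
              constructor
              · rintro (rfl | ⟨j, hj, rfl⟩)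
                · exact ⟨k, by omega, rfl⟩
                · exact ⟨j, by omega, rfl⟩
              · rintro ⟨j, hj, rfl⟩
                by_cases hjk : j < k
                · exact Or.inr ⟨j, hjk, rfl⟩
                · have : j = k := by omega
                  subst this
                  exact Or.inl rfl
            rw [hset, hset2] at hnext
            have hnk2 : n - (k + 1) = n - 1 - k := by omega
            rw [hnk2]
            exact hnext
        · left
          exact ⟨k, by omega, hB, hM', Or.inr hrep⟩

/-- A bounded-depth win from the empty position yields an explicit Maker strategy that wins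
within `n` moves against every Breaker play. -/
theorem exists_strategy_of_makerWinsIn [Inhabited α] (W : Set (Finset α)) (n : ℕ)
    (h : MakerWinsIn W n ∅ ∅) : ∃ τ : MakerStrategy α, MakerWinsBy W n τ := by
  refine ⟨goodStrategy W n, ?_⟩
  intro r
  rcases goodStrategy_invariant W n h r n le_rfl with ⟨k', hk', hA⟩ | ⟨_, _, hwin⟩
  · exact ⟨k', hk', hA⟩
  · rw [Nat.sub_self] at hwin
    exact absurd hwin (by simp [MakerWinsIn])

/-- The plain form: against every sequence of legal Breaker replies, Maker (following the
strategy) makes only legal moves and owns a winning set after at most `n` moves. -/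
theorem MakerWinsBy.against_legal {W : Set (Finset α)} {n : ℕ} {τ : MakerStrategy α}
    (h : MakerWinsBy W n τ) (r : ℕ → α) (hr : ∀ k, BreakerReplyLegal τ r k) :
    ∃ k < n, (∀ j ≤ k, MakerMoveLegal τ r j) ∧ MakerOwnsAfter W τ r k := by
  obtain ⟨k, hk, _, hM, h3⟩ := h r
  rcases h3 with h3 | h3
  · exact ⟨k, hk, hM, h3⟩
  · exact absurd (hr k) h3

end Vale.Agent.Lib.P062
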