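import Vale.Agent.Lib.P062.MakerGame

/-!
# Symmetry transport for `MakerWinsIn`

A bijection of the board that maps winning sets to winning sets transports Maker's bounded-depth
wins.  For Snaky the maps `p ↦ t + signedPerm swap a b p` (translations composed with the eight
signed permutation matrices) are such bijections.
-/

namespace Vale.Agent.Lib.P062

/-- Transport of `MakerWinsIn` along a bijection that preserves the winning sets. -/
theorem makerWinsIn_equiv {α : Type} (W : Set (Finset α)) (e : α ≃ α)
    (hW : ∀ C : Finset α, C ∈ W → C.map e.toEmbedding ∈ W) :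
    ∀ (n : ℕ) (M R : Set α), MakerWinsIn W n M R → MakerWinsIn W n (e '' M) (e '' R) := by
  intro n
  induction n with
  | zero =>
    intro M R h
    exact absurd h (by simp [MakerWinsIn])
  | succ n ih =>
    intro M R h
    obtain ⟨c, hcM, hcR, h⟩ := h
    refine ⟨e c, ?_, ?_, ?_⟩
    · rintro ⟨x, hx, hxc⟩
      exact hcM (e.injective hxc ▸ hx)
    · rintro ⟨x, hx, hxc⟩
      exact hcR (e.injective hxc ▸ hx)
    · rcases h with ⟨C, hC, hsub⟩ | h
      · left
        refine ⟨C.map e.toEmbedding, hW C hC, ?_⟩
        intro y hy
        rw [Finset.mem_coe, Finset.mem_map] at hy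
        obtain ⟨x, hx, rfl⟩ := hy
        rw [← Set.image_insert_eq]
        exact ⟨x, hsub hx, rfl⟩
      · right
        intro r hr1 hr2
        have h1 : e.symm r ∉ insert c M := by
          intro hmem
          apply hr1
          rw [← Set.image_insert_eq]
          exact ⟨e.symm r, hmem, e.apply_symm_apply r⟩
        have h2 : e.symm r ∉ R := by
          intro hmem
          exact hr2 ⟨e.symm r, hmem, e.apply_symm_apply r⟩
        have h3 := ih _ _ (h (e.symm r) h1 h2)
        rw [Set.image_insert_eq, Set.image_insert_eq, e.apply_symm_apply] at h3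
        exact h3

/-- The map `p ↦ t + signedPerm swap a b p` as a bijection of the grid. -/
def snakySymm (swap : Bool) (a b : ℤ) (t : Cell) (ha : a = 1 ∨ a = -1) (hb : b = 1 ∨ b = -1) :
    Cell ≃ Cell where
  toFun p := t + signedPerm swap a b p
  invFun p := if swap then signedPerm true b a (p - t) else signedPerm false a b (p - t)
  left_inv := by
    intro p
    have ha2 : a * a = 1 := by rcases ha with rfl | rfl <;> norm_num
    have hb2 : b * b = 1 := by rcases hb with rfl | rfl <;> norm_num
    cases swap
    · simp only [signedPerm, Bool.false_eq_true, if_false]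
      ext
      · simp only [Prod.fst_sub, Prod.fst_add]
        rw [add_sub_cancel_left, ← mul_assoc, ha2, one_mul]
      · simp only [Prod.snd_sub, Prod.snd_add]
        rw [add_sub_cancel_left, ← mul_assoc, hb2, one_mul]
    · simp only [signedPerm, if_true]
      ext
      · simp only [Prod.snd_sub, Prod.snd_add]
        rw [add_sub_cancel_left, ← mul_assoc, hb2, one_mul]
      · simp only [Prod.fst_sub, Prod.fst_add]
        rw [add_sub_cancel_left, ← mul_assoc, ha2, one_mul]
  right_inv := by
    intro p
    have ha2 : a * a = 1 := by rcases ha with rfl | rfl <;> norm_num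
    have hb2 : b * b = 1 := by rcases hb with rfl | rfl <;> norm_num
    cases swap
    · simp only [signedPerm, Bool.false_eq_true, if_false]
      ext
      · simp only [Prod.fst_sub, Prod.fst_add]
        rw [← mul_assoc, ha2, one_mul, add_sub_cancel]
      · simp only [Prod.snd_sub, Prod.snd_add]
        rw [← mul_assoc, hb2, one_mul, add_sub_cancel]
    · simp only [signedPerm, if_true]
      ext
      · simp only [Prod.fst_sub, Prod.fst_add]
        rw [← mul_assoc, ha2, one_mul, add_sub_cancel]
      · simp only [Prod.snd_sub, Prod.snd_add]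
        rw [← mul_assoc, hb2, one_mul, add_sub_cancel]

theorem snakySymm_apply (swap : Bool) (a b : ℤ) (t : Cell) (ha : a = 1 ∨ a = -1)
    (hb : b = 1 ∨ b = -1) (p : Cell) :
    snakySymm swap a b t ha hb p = t + signedPerm swap a b p := rfl

/-- The composition of two of the maps `p ↦ t + signedPerm swap a b p` is again of this form. -/
theorem signedPerm_comp (s : Bool) (a b : ℤ) (t : Cell) (s' : Bool) (a' b' : ℤ) (t' : Cell)
    (ha : a = 1 ∨ a = -1) (hb : b = 1 ∨ b = -1) (ha' : a' = 1 ∨ a' = -1)
    (hb' : b' = 1 ∨ b' = -1) :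
    ∃ (s'' : Bool) (a'' b'' : ℤ) (t'' : Cell), (a'' = 1 ∨ a'' = -1) ∧ (b'' = 1 ∨ b'' = -1) ∧
      ∀ p : Cell, t + signedPerm s a b (t' + signedPerm s' a' b' p) =
        t'' + signedPerm s'' a'' b'' p := by
  have hmul : ∀ x y : ℤ, (x = 1 ∨ x = -1) → (y = 1 ∨ y = -1) → (x * y = 1 ∨ x * y = -1) := by
    intro x y hx hy
    rcases hx with rfl | rfl <;> rcases hy with rfl | rfl <;> norm_num
  cases s <;> cases s'
  · refine ⟨false, a * a', b * b', t + signedPerm false a b t', hmul a a' ha ha', hmul b b' hb hb',
      ?_⟩
    intro p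
    simp only [signedPerm, Bool.false_eq_true, if_false]
    ext
    · simp only [Prod.fst_add]; ring
    · simp only [Prod.snd_add]; ring
  · refine ⟨true, a * a', b * b', t + signedPerm false a b t', hmul a a' ha ha', hmul b b' hb hb',
      ?_⟩
    intro p
    simp only [signedPerm, Bool.false_eq_true, if_false, if_true]
    ext
    · simp only [Prod.fst_add]; ring
    · simp only [Prod.snd_add]; ring
  · refine ⟨true, a * b', b * a', t + signedPerm true a b t', hmul a b' ha hb', hmul b a' hb ha',
      ?_⟩
    intro p
    simp only [signedPerm, Bool.false_eq_true, if_false, if_true]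
    ext
    · simp only [Prod.fst_add, Prod.snd_add]; ring
    · simp only [Prod.fst_add, Prod.snd_add]; ring
  · refine ⟨false, a * b', b * a', t + signedPerm true a b t', hmul a b' ha hb', hmul b a' hb ha',
      ?_⟩
    intro p
    simp only [signedPerm, Bool.false_eq_true, if_false, if_true]
    ext
    · simp only [Prod.fst_add, Prod.snd_add]; ring
    · simp only [Prod.fst_add, Prod.snd_add]; ring

/-- The image of an allowed copy of Snaky under `p ↦ t + signedPerm swap a b p` is an allowed
copy. -/
theorem isSnakyCopy_map (swap : Bool) (a b : ℤ) (t : Cell) (ha : a = 1 ∨ a = -1)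
    (hb : b = 1 ∨ b = -1) (C : Finset Cell) (hC : IsSnakyCopy C) :
    IsSnakyCopy (C.map (snakySymm swap a b t ha hb).toEmbedding) := by
  obtain ⟨s', a', b', t', ha', hb', rfl⟩ := hC
  obtain ⟨s'', a'', b'', t'', ha'', hb'', hcomp⟩ := signedPerm_comp swap a b t s' a' b' t' ha hb ha' hb'
  refine ⟨s'', a'', b'', t'', ha'', hb'', ?_⟩
  rw [Finset.map_eq_image, Finset.image_image]
  apply Finset.image_congr
  intro p _
  exact hcomp p

/-- Transport of Maker's wins for Snaky along the symmetries of the grid. -/
theorem makerWinsIn_snaky_symm (swap : Bool) (a b : ℤ) (t : Cell) (ha : a = 1 ∨ a = -1)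
    (hb : b = 1 ∨ b = -1) (n : ℕ) (M R : Set Cell) :
    MakerWinsIn {C | IsSnakyCopy C} n M R →
      MakerWinsIn {C | IsSnakyCopy C} n ((fun p => t + signedPerm swap a b p) '' M)
        ((fun p => t + signedPerm swap a b p) '' R) := by
  intro h
  exact makerWinsIn_equiv {C | IsSnakyCopy C} (snakySymm swap a b t ha hb)
    (fun C hC => isSnakyCopy_map swap a b t ha hb C hC) n M R h

end Vale.Agent.Lib.P062
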